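import Vale.Agent.P207.N6.H242.SInvEnds
import Vale.Agent.P207.N6.H547.AffLemC

/-!
# P207, row S-INV: it is enough to know the invariance at the centre of ONE frame

`sinv_of_frame` : only `P.T3` and `P.SB` are used, no rates.
-/

set_option linter.all false

open Set Filter Topology Metric Module
open scoped ContDiff RealInnerProductSpace

noncomputable section

namespace Vale.Agent.P207.N4.W.H242

open Vale.Agent.P207.N3

variable [Dim]

variable {Γ X B : Type} [Group Γ] [MetricSpace X] [ProperSpace X] [MulAction Γ X]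
  [IsIsometricSMul Γ X] [TopologicalSpace B] [CompactSpace B] [T2Space B] [MulAction Γ B]
  [ContinuousConstSMul Γ B]
variable {L : Leaf Γ X B} [MeasurableSpace B] [BorelSpace B] {V : Type}
  [NormedAddCommGroup V] [NormedSpace ℝ V] [FiniteDimensional ℝ V] (P : Pic L V)

/-- the derivative of the stable holonomy at the centre respects the S-spaces -/
def SI (x : X) (ξ : B) : Prop := ∀ A : E2 ≃L[ℝ] E2, (A : E2 →L[ℝ] E2) = fderiv ℝ (P.hh x ξ) 0 →
  ∀ s, s ∈ P.Sm x ↔ Pic.push A s ∈ P.Sm (L.hol ξ x)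

variable {P}

theorem SI.inv0 {x : X} {ξ : B} (h : SI P x ξ) : Inv0 P x ξ := fun A hA s hs => (h A hA s).1 hs

/-- one inclusion and the dimensions -/
theorem si_of_le {x : X} {ξ : B} (h : Inv0 P x ξ)
    (hd : finrank ℝ (SM P x) = finrank ℝ (SM P (L.hol ξ x))) : SI P x ξ := by
  intro A hA s
  refine ⟨fun hs => h A hA s hs, fun hs => ?_⟩
  -- the map `push A`
  let T : (E2 →L[ℝ] E2) →ₗ[ℝ] (E2 →L[ℝ] E2) :=
    { toFun := fun s => Pic.push A s
      map_add' := by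
        intro s s'
        ext1 v
        change ContinuousLinearMap.adjoint (A.symm : E2 →L[ℝ] E2)
          (s (A.symm v) + s' (A.symm v)) = _
        rw [map_add]; rfl
      map_smul' := by
        intro c s
        ext1 v
        change ContinuousLinearMap.adjoint (A.symm : E2 →L[ℝ] E2) (c • s (A.symm v)) = _
        rw [map_smul]; rfl }
  have hT : Function.Injective T := by
    intro s s' hss
    have h1 : Pic.push A s = Pic.push A s' := hss
    rw [← push_symm_push A s, h1, push_symm_push]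
  have hle : (SM P x).map T ≤ SM P (L.hol ξ x) := by
    rintro _ ⟨s, hs, rfl⟩
    exact h A hA s hs
  have hfr : finrank ℝ ((SM P x).map T) = finrank ℝ (SM P (L.hol ξ x)) := by
    rw [← (Submodule.equivMapOfInjective T hT (SM P x)).finrank_eq, hd]
  have heq := Submodule.eq_of_le_of_finrank_eq hle hfr
  have h2 : T s ∈ (SM P x).map T := by
    rw [heq]; exact hs
  obtain ⟨s', hs', h3⟩ := h2
  rw [← hT h3]
  exact hs'

/-! ### the coordinates -/

theorem ch_ep (x : X) : P.Af.ch x (L.ep x) = 0 := by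
  rw [← P.Af.pt_zero x, P.Af.ch_pt]

theorem hh_zero {x : X} {ξ : B} (hξ : ξ ≠ L.ep x) : P.hh x ξ 0 = 0 := by
  change P.Af.ch (L.hol ξ x) (P.Af.pt x 0) = 0
  rw [P.Af.pt_zero, ← L.hol_ep ξ x hξ, ch_ep]

/-- derivatives of two functions conjugated near the centre -/
theorem der_conj {f g m m' : E2 → E2} {Dm Dm' Dg : E2 →L[ℝ] E2} {Df : E2 →L[ℝ] E2}
    (hm0 : m 0 = 0) (hg0 : g 0 = 0) (hf : HasFDerivAt f Df 0) (hm : HasFDerivAt m Dm 0)
    (hg : HasFDerivAt g Dg 0) (hm' : HasFDerivAt m' Dm' 0)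
    (h : ∀ᶠ q in 𝓝 (0 : E2), f (m q) = m' (g q)) : Df ∘L Dm = Dm' ∘L Dg := by
  have h1 : HasFDerivAt (fun q => f (m q)) (Df ∘L Dm) 0 := by
    refine HasFDerivAt.comp (0 : E2) ?_ hm
    rw [hm0]; exact hf
  have h2 : HasFDerivAt (fun q => m' (g q)) (Dm' ∘L Dg) 0 := by
    refine HasFDerivAt.comp (0 : E2) ?_ hg
    rw [hg0]; exact hm'
  exact h1.unique (h2.congr_of_eventuallyEq h)

theorem equiv_of_comp {A M M' C : E2 ≃L[ℝ] E2}
    (h : (A : E2 →L[ℝ] E2) ∘L (M : E2 →L[ℝ] E2) = (M' : E2 →L[ℝ] E2) ∘L (C : E2 →L[ℝ] E2)) :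
    A = (M.symm.trans C).trans M' := by
  refine ContinuousLinearEquiv.ext (funext fun v => ?_)
  have h1 := DFunLike.congr_fun h (M.symm v)
  change A (M (M.symm v)) = M' (C (M.symm v)) at h1
  rw [M.apply_symm_apply] at h1
  exact h1

/-- two frames of the same geodesic -/
theorem SI.geo {ε₀ : ℝ} (h3 : P.T3 ε₀) (hSB : P.SB) {x y : X} {ξ : B} (hem : L.em x = L.em y)
    (hep : L.ep x = L.ep y) (hξ : ξ ≠ L.ep x) (h : SI P x ξ) : SI P y ξ := by
  have hξy : ξ ≠ L.ep y := by rw [← hep]; exact hξ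
  obtain ⟨C, hC⟩ := hh_inv h3 hξ (pt0_ne hξ)
  intro A hA s
  set x' := L.hol ξ x with hx'
  set y' := L.hol ξ y with hy'
  have hem' : L.em x' = L.em y' := by rw [hx', hy', L.hol_em _ _ hξ, L.hol_em _ _ hξy]
  have hep' : L.ep x' = L.ep y' := by rw [hx', hy', L.hol_ep _ _ hξ, L.hol_ep _ _ hξy, hep]
  have e1 : ∀ q, P.Af.pt y (P.Af.lin x y q) = P.Af.pt x q := by
    intro q
    have h1 := P.Af.leaf x y hem q
    rwa [← hep, ch_ep, sub_zero] at h1
  have e2 : ∀ q, P.Af.pt y' (P.Af.lin x' y' q) = P.Af.pt x' q := by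
    intro q
    have h1 := P.Af.leaf x' y' hem' q
    rwa [← hep', ch_ep, sub_zero] at h1
  have hconj : (A : E2 →L[ℝ] E2) ∘L (P.Af.lin x y : E2 →L[ℝ] E2) =
      (P.Af.lin x' y' : E2 →L[ℝ] E2) ∘L (C : E2 →L[ℝ] E2) := by
    refine der_conj (f := P.hh y ξ) (g := P.hh x ξ) (m := P.Af.lin x y) (m' := P.Af.lin x' y')
      (map_zero _) (hh_zero hξ) ?_ (P.Af.lin x y : E2 →L[ℝ] E2).hasFDerivAt ?_
      (P.Af.lin x' y' : E2 →L[ℝ] E2).hasFDerivAt ?_
    · rw [hA]; exact hh_der h3 hξy (pt0_ne hξy)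
    · rw [hC]; exact hh_der h3 hξ (pt0_ne hξ)
    · filter_upwards [(isOpen_ne' (P := P) x ξ).mem_nhds (pt0_ne hξ)] with q hq
      change P.Af.ch y' (P.Af.pt y (P.Af.lin x y q)) =
        P.Af.lin x' y' (P.Af.ch x' (P.Af.pt x q))
      have hq' : P.Af.pt x q ≠ L.em x' := by rw [hx', L.hol_em _ _ hξ]; exact hq
      have h1 := e2 (P.Af.ch x' (P.Af.pt x q))
      rw [P.Af.pt_ch _ _ hq'] at h1
      have h2 := P.Af.ch_pt y' (P.Af.lin x' y' (P.Af.ch x' (P.Af.pt x q)))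
      rw [h1] at h2
      rw [e1, h2]
  rw [equiv_of_comp hconj, push_trans, push_trans]
  have h1 := hSB.2.1 x y hem (Pic.push (P.Af.lin x y).symm s)
  rw [push_push_symm] at h1
  rw [← h1, h C hC, hSB.2.1 x' y' hem']

/-- the cocycle relation -/
theorem SI.cocycle {ε₀ : ℝ} (h3 : P.T3 ε₀) {x : X} {ζ ξ : B} (hζ : ζ ≠ L.ep x) (hξ : ξ ≠ L.ep x)
    (h1 : SI P x ζ) (h2 : SI P x ξ) : SI P (L.hol ζ x) ξ := by
  set z := L.hol ζ x with hz
  have hepz : L.ep z = L.ep x := L.hol_ep _ _ hζ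
  have hemz : L.em z = ζ := L.hol_em _ _ hζ
  have hξz : ξ ≠ L.ep z := by rw [hepz]; exact hξ
  have ehol : L.hol ξ z = L.hol ξ x := by rw [hz, L.hol_hol ζ ξ x hζ hξ]
  obtain ⟨M, hM⟩ := hh_inv h3 hζ (pt0_ne hζ)
  obtain ⟨C, hC⟩ := hh_inv h3 hξ (pt0_ne hξ)
  intro A hA s
  have hconj : (A : E2 →L[ℝ] E2) ∘L (M : E2 →L[ℝ] E2) =
      ((ContinuousLinearEquiv.refl ℝ E2 : E2 ≃L[ℝ] E2) : E2 →L[ℝ] E2) ∘L (C : E2 →L[ℝ] E2) := by
    refine der_conj (f := P.hh z ξ) (g := P.hh x ξ) (m := P.hh x ζ) (m' := fun q => q)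
      (hh_zero hζ) (hh_zero hξ) ?_ ?_ ?_ (hasFDerivAt_id _) ?_
    · rw [hA]; exact hh_der h3 hξz (pt0_ne hξz)
    · rw [hM]; exact hh_der h3 hζ (pt0_ne hζ)
    · rw [hC]; exact hh_der h3 hξ (pt0_ne hξ)
    · filter_upwards [(isOpen_ne' (P := P) x ζ).mem_nhds (pt0_ne hζ)] with q hq
      change P.Af.ch (L.hol ξ z) (P.Af.pt z (P.Af.ch z (P.Af.pt x q))) =
        P.Af.ch (L.hol ξ x) (P.Af.pt x q)
      rw [P.Af.pt_ch _ _ (by rw [hemz]; exact hq), ehol]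
  have hA' : A = M.symm.trans C := by
    rw [equiv_of_comp hconj]
    exact ContinuousLinearEquiv.ext rfl
  rw [hA', push_trans, ehol, ← h2 C hC, h1 M hM, push_push_symm]

/-- the group -/
theorem Sm_smul (g : Γ) (x : X) (s : E2 →L[ℝ] E2) : s ∈ P.Sm (g • x) ↔ s ∈ P.Sm x := by
  have h : ∀ q ∈ ball (0 : E2) 1, P.Na (g • x) q = P.Na x q := fun q hq =>
    P.Na_smul g (P.Af.closedBall_dT x (ball_subset_closedBall
      (ball_subset_ball (by norm_num) hq)))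
  constructor
  · intro hs
    refine ContDiffOn.congr hs fun q hq => ?_
    rw [h q hq]
  · intro hs
    refine ContDiffOn.congr hs fun q hq => ?_
    rw [h q hq]

theorem ep_smul' (g : Γ) (x : X) : L.ep (g • x) = g • L.ep x := by
  rw [L.ep_flip, L.flip_smul, L.em_smul, ← L.ep_flip]

theorem ch_smul' (g : Γ) (x : X) {η : B} (hη : η ≠ L.em x) :
    P.Af.ch (g • x) (g • η) = P.Af.ch x η := by
  have h1 := P.Af.pt_smul g x (P.Af.ch x η)
  rw [P.Af.pt_ch x η hη] at h1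
  rw [← h1, P.Af.ch_pt]

theorem SI.smul {x : X} {ξ : B} (hξ : ξ ≠ L.ep x) (h : SI P x ξ) (g : Γ) :
    SI P (g • x) (g • ξ) := by
  intro A hA s
  have e1 : P.hh (g • x) (g • ξ) =ᶠ[𝓝 0] P.hh x ξ := by
    filter_upwards [(isOpen_ne' (P := P) x ξ).mem_nhds (pt0_ne hξ)] with q hq
    change P.Af.ch (L.hol (g • ξ) (g • x)) (P.Af.pt (g • x) q) =
      P.Af.ch (L.hol ξ x) (P.Af.pt x q)
    rw [L.hol_smul g ξ x hξ, P.Af.pt_smul, ch_smul']
    rw [L.hol_em _ _ hξ]; exact hq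
  rw [e1.fderiv_eq] at hA
  rw [Sm_smul, L.hol_smul g ξ x hξ, Sm_smul]
  exact h A hA s

/-- **S-INV from one frame** -/
theorem sinv_of_frame (P : Pic L V) {ε₀ : ℝ} (h3 : P.T3 ε₀) (hSB : P.SB) (x₀ : X)
    (h : ∀ ξ, ξ ≠ L.ep x₀ → SI P x₀ ξ) : P.SInv := by
  refine sinv_of_ends P h3 hSB (range fun g : Γ => g • L.ep x₀) (L.dense_orbit _) ?_
  rintro y ξ ⟨g, hg⟩ hξ
  refine SI.inv0 ?_
  set y' : X := g⁻¹ • y with hy'
  set ξ' : B := g⁻¹ • ξ with hξ'
  have hep : L.ep y' = L.ep x₀ := by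
    rw [hy', ep_smul', ← hg]
    exact inv_smul_smul g _
  have hζ : L.em y' ≠ L.ep x₀ := by rw [← hep]; exact L.em_ne_ep y'
  have hξ0 : ξ' ≠ L.ep x₀ := by
    rw [← hep, hy', hξ', ep_smul']
    exact fun h => hξ (MulAction.injective g⁻¹ h)
  have h1 := SI.cocycle h3 hζ hξ0 (h _ hζ) (h _ hξ0)
  have h2 : SI P y' ξ' := by
    refine SI.geo h3 hSB (x := L.hol (L.em y') x₀) ?_ ?_ ?_ h1
    · rw [L.hol_em _ _ hζ]
    · rw [L.hol_ep _ _ hζ, hep]
    · rw [L.hol_ep _ _ hζ]; exact hξ0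
  have h3' := h2.smul (by rw [hep]; exact hξ0) g
  rwa [hy', hξ', smul_inv_smul, smul_inv_smul] at h3'

end Vale.Agent.P207.N4.W.H242
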